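import Mathlib
import Vale.Agent.P201.Slices
import Vale.Agent.P201.Arch

open MonoidAlgebra

namespace Vale.Agent.Results.P201.LeadingSupport

/-- The leading support of an element `x` of the group algebra with respect to a valuation ring
`A` of the coefficient field: the group elements whose coefficient is nonzero and of the largest
value. -/
def leadingSupport {K G : Type*} [Field K] (A : ValuationSubring K) (x : MonoidAlgebra K G) :
    Set G :=
  {g | x.coeff g ≠ 0 ∧ ∀ h, A.valuation (x.coeff h) ≤ A.valuation (x.coeff g)}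

variable {K G : Type*} [Field K] [Group G]

theorem leadingSupport_nonempty (A : ValuationSubring K) {x : MonoidAlgebra K G} (hx : x ≠ 0) :
    (leadingSupport A x).Nonempty := by
  have hne : x.coeff.support.Nonempty := by
    rw [Finsupp.support_nonempty_iff]
    simpa using hx
  obtain ⟨g, hg, hmax⟩ := Finset.exists_max_image x.coeff.support
    (fun a => A.valuation (x.coeff a)) hne
  refine ⟨g, by simpa using hg, fun h => ?_⟩
  by_cases hh : x.coeff h = 0
  · simp [hh]
  · exact hmax h (by simpa using hh)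

theorem exists_reduction (A : ValuationSubring K) {x : MonoidAlgebra K G} (hx : x ≠ 0) :
    ∃ (s : K) (X : MonoidAlgebra A G), s ≠ 0 ∧
      MonoidAlgebra.mapRingHom G (A.subtype : A →+* K) X = s • x ∧
      ∀ g, (MonoidAlgebra.mapRingHom G (IsLocalRing.residue A) X).coeff g ≠ 0 ↔
        g ∈ leadingSupport A x := by
  obtain ⟨g0, hg0, hmax⟩ := leadingSupport_nonempty A hx
  have hint : ∀ g, (x.coeff g0)⁻¹ * x.coeff g ∈ A := by
    intro g
    rw [← A.valuation_le_one_iff, map_mul, map_inv₀]
    have h0 : 0 < A.valuation (x.coeff g0) := by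
      rw [zero_lt_iff]; simpa using hg0
    rw [inv_mul_le_iff₀ h0, mul_one]
    exact hmax g
  have hrange : (x.coeff g0)⁻¹ • x ∈
      Set.range (MonoidAlgebra.map (M := G) ((A.subtype : A →+* K) : A →+ K)) := by
    rw [MonoidAlgebra.range_map]
    intro g
    exact ⟨⟨_, hint g⟩, by simp⟩
  obtain ⟨X, hX⟩ := hrange
  refine ⟨(x.coeff g0)⁻¹, X, inv_ne_zero hg0, hX, fun g => ?_⟩
  have hXg : ((X.coeff g : A) : K) = (x.coeff g0)⁻¹ * x.coeff g := by
    have := congrArg (fun z => z.coeff g) hX
    simpa using this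
  rw [MonoidAlgebra.coeff_mapRingHom, IsLocalRing.residue_ne_zero_iff_isUnit,
    A.valuation_eq_one_iff, hXg, map_mul, map_inv₀]
  have h0 : A.valuation (x.coeff g0) ≠ 0 := by simpa using hg0
  rw [inv_mul_eq_one₀ h0]
  constructor
  · intro h
    refine ⟨?_, fun a => ?_⟩
    · intro h1
      rw [h1, map_zero] at h
      exact h0 h
    · rw [← h]; exact hmax a
  · rintro ⟨h1, h2⟩
    exact le_antisymm (h2 g0) (hmax g)

/-- Reduction of a pair of zero divisors at a place, with control of the support. -/
theorem place_bound {x y : MonoidAlgebra K G} (hx : x ≠ 0) (hy : y ≠ 0)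
    (hxy : x * y = 0 ∨ y * x = 0) (A : ValuationSubring K) (H : Subgroup G) (g : G)
    (hs : ∀ a ∈ leadingSupport A x, g⁻¹ * a ∈ H) :
    ¬ NoZeroDivisors (MonoidAlgebra (IsLocalRing.ResidueField A) H) := by
  intro hno
  obtain ⟨s, X, hs0, hX, hXs⟩ := exists_reduction A hx
  obtain ⟨t, Y, ht0, hY, hYs⟩ := exists_reduction A hy
  have hinj : Function.Injective (MonoidAlgebra.mapRingHom G (A.subtype : A →+* K)) := by
    intro p q hpq
    exact MonoidAlgebra.map_injective (M := G) ((A.subtype : A →+* K) : A →+ K)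
      A.subtype_injective hpq
  have hXY : X * Y = 0 ∨ Y * X = 0 := by
    rcases hxy with h | h
    · left
      apply hinj
      rw [map_mul, hX, hY, smul_mul_smul_comm, h, smul_zero, map_zero]
    · right
      apply hinj
      rw [map_mul, hX, hY, smul_mul_smul_comm, h, smul_zero, map_zero]
  set r := MonoidAlgebra.mapRingHom G (IsLocalRing.residue A) with hr
  have hX0 : r X ≠ 0 := by
    obtain ⟨a, ha⟩ := leadingSupport_nonempty A hx
    intro h0
    have := (hXs a).2 ha
    rw [h0] at this
    simp at this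
  have hY0 : r Y ≠ 0 := by
    obtain ⟨a, ha⟩ := leadingSupport_nonempty A hy
    intro h0
    have := (hYs a).2 ha
    rw [h0] at this
    simp at this
  apply hY0
  refine Vale.Agent.P201aux.eq_zero_of_support H g hX0 (fun a ha => hs a ((hXs a).1 ha)) ?_
  rcases hXY with h | h
  · left; rw [← map_mul, h, map_zero]
  · right; rw [← map_mul, h, map_zero]

theorem noZeroDivisors_range (k : Type*) [Field k] (g : G) (hg : g = 1 ∨ ¬ IsOfFinOrder g) :
    ∃ H : Subgroup G, g ∈ H ∧ NoZeroDivisors (MonoidAlgebra k H) := by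
  rcases hg with rfl | hg
  · refine ⟨⊥, Subgroup.mem_bot.2 rfl, ?_⟩
    have : UniqueProds (⊥ : Subgroup G) :=
      UniqueProds.of_injective_mulHom
        ((1 : (⊥ : Subgroup G) →* Multiplicative ℤ) : (⊥ : Subgroup G) →ₙ* Multiplicative ℤ)
        (fun a b _ => Subsingleton.elim a b) inferInstance
    infer_instance
  · have hinj : Function.Injective (zpowersHom G g) := by
      have := injective_zpow_iff_not_isOfFinOrder.2 hg
      intro a b hab
      apply Multiplicative.toAdd.injective
      apply this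
      simpa [zpowersHom_apply] using hab
    refine ⟨(zpowersHom G g).range, ⟨Multiplicative.ofAdd 1, by simp⟩, ?_⟩
    have : UniqueProds (zpowersHom G g).range :=
      (MulEquiv.uniqueProds_iff (MonoidHom.ofInjective hinj)).1 inferInstance
    infer_instance

theorem three_le (hG : ∀ g : G, g ≠ 1 → ¬ IsOfFinOrder g) {x y : MonoidAlgebra K G} (hx : x ≠ 0)
    (hy : y ≠ 0) (hxy : x * y = 0 ∨ y * x = 0) (A : ValuationSubring K) :
    3 ≤ (leadingSupport A x).ncard := by
  have hfin : (leadingSupport A x).Finite := by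
    refine x.coeff.support.finite_toSet.subset ?_
    rintro g ⟨hg, -⟩
    simpa using hg
  by_contra hlt
  push Not at hlt
  obtain ⟨g0, hg0⟩ := leadingSupport_nonempty A hx
  have key : ∃ g1, leadingSupport A x ⊆ {g0, g1} := by
    by_cases h1 : ∃ g1 ∈ leadingSupport A x, g1 ≠ g0
    · obtain ⟨g1, hg1, hne⟩ := h1
      refine ⟨g1, ?_⟩
      have hsub : ({g0, g1} : Set G) ⊆ leadingSupport A x := by
        rintro a (rfl | rfl)
        · exact hg0
        · exact hg1
      have hcard : (leadingSupport A x).ncard ≤ ({g0, g1} : Set G).ncard := by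
        rw [Set.ncard_pair hne.symm]; omega
      exact (Set.eq_of_subset_of_ncard_le hsub hcard hfin).symm.subset
    · push Not at h1
      refine ⟨g0, fun a ha => ?_⟩
      simp [h1 a ha]
  obtain ⟨g1, hg1⟩ := key
  have hord : g0⁻¹ * g1 = 1 ∨ ¬ IsOfFinOrder (g0⁻¹ * g1) := by
    by_cases h : g0⁻¹ * g1 = 1
    · exact Or.inl h
    · exact Or.inr (hG _ h)
  obtain ⟨H, hH, hno⟩ := noZeroDivisors_range (IsLocalRing.ResidueField A) (g0⁻¹ * g1) hord
  refine place_bound hx hy hxy A H g0 ?_ hno
  intro a ha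
  rcases hg1 ha with rfl | h
  · simp
  · rw [Set.mem_singleton_iff.1 h]; exact hH

theorem ratio_isIntegral (hG : ∀ g : G, g ≠ 1 → ¬ IsOfFinOrder g) {x y : MonoidAlgebra K G}
    (hx : x ≠ 0) (hy : y ≠ 0) (hxy : x * y = 0 ∨ y * x = 0) (hcard : x.coeff.support.card = 3)
    {g h : G} (hg : g ∈ x.coeff.support) (hh : h ∈ x.coeff.support) :
    IsIntegral ℤ (x.coeff g / x.coeff h) := by
  have hall : ∀ A : ValuationSubring K, x.coeff g / x.coeff h ∈ A := by
    intro A
    have hsub : leadingSupport A x ⊆ (x.coeff.support : Set G) := by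
      rintro a ⟨ha, -⟩
      simpa using ha
    have heq : leadingSupport A x = (x.coeff.support : Set G) := by
      apply Set.eq_of_subset_of_ncard_le hsub
      rw [Set.ncard_coe_finset, hcard]
      exact three_le hG hx hy hxy A
    have hg' : g ∈ leadingSupport A x := by rw [heq]; exact hg
    have hh' : h ∈ leadingSupport A x := by rw [heq]; exact hh
    rw [← A.valuation_le_one_iff, map_div₀]
    have h0 : 0 < A.valuation (x.coeff h) := by
      rw [zero_lt_iff]; simpa using hh'.1
    rw [div_le_one₀ h0]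
    exact hh'.2 g
  have hmem : x.coeff g / x.coeff h ∈
      (⨅ V : {V : ValuationSubring K // (∅ : Set K) ⊆ V.toSubring}, V.1.toSubring) := by
    rw [Subring.mem_iInf]
    intro V
    exact hall V.1
  rw [iInf_valuationSubring_superset] at hmem
  have hint : IsIntegral (Subring.closure (∅ : Set K)) (x.coeff g / x.coeff h) := hmem
  have : Algebra.IsIntegral ℤ (Subring.closure (∅ : Set K)) := by
    refine ⟨fun a => ?_⟩
    obtain ⟨a, ha⟩ := a
    rw [Subring.closure_empty, Subring.mem_bot] at ha
    obtain ⟨n, rfl⟩ := ha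
    exact isIntegral_algebraMap (R := ℤ) (A := Subring.closure (∅ : Set K)) (x := n)
  exact isIntegral_trans _ hint

theorem result (hG : ∀ g : G, g ≠ 1 → ¬ IsOfFinOrder g) (x : MonoidAlgebra K G) (hx : x ≠ 0)
    (h : (∃ (A : ValuationSubring K) (H : Subgroup G) (g : G),
            NoZeroDivisors (MonoidAlgebra (IsLocalRing.ResidueField A) H) ∧
            ∀ a ∈ leadingSupport A x, g⁻¹ * a ∈ H) ∨
         (∃ A : ValuationSubring K, (leadingSupport A x).ncard < 3) ∨
         (∃ (φ : AbsoluteValue K ℝ) (g : G),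
            ∑ a ∈ x.coeff.support, φ (x.coeff a) ≤ 2 * φ (x.coeff g)) ∨
         (x.coeff.support.card = 3 ∧ ∃ a ∈ x.coeff.support, ∃ b ∈ x.coeff.support,
            ¬ IsIntegral ℤ (x.coeff a / x.coeff b))) :
    ∀ y : MonoidAlgebra K G, x * y = 0 ∨ y * x = 0 → y = 0 := by
  intro y hxy
  by_contra hy
  rcases h with ⟨A, H, g, hno, hs⟩ | ⟨A, hA⟩ | ⟨φ, g, hdom⟩ | ⟨hcard, a, ha, b, hb, hab⟩
  · exact place_bound hx hy hxy A H g hs hno
  · exact absurd (three_le hG hx hy hxy A) (not_le.2 hA)
  · exact absurd (Vale.Agent.P201aux.no_dominant hG hx hy hxy φ g) (not_lt.2 hdom)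
  · exact hab (ratio_isIntegral hG hx hy hxy hcard ha hb)

end Vale.Agent.Results.P201.LeadingSupport
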